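import Vale.Agent.P309.Entropy

/-!
Abstract form of Han's inequality for the entropy functional: independent sub sigma algebras,
conditional expectations and a density.
-/

open MeasureTheory ProbabilityTheory Real Set Filter Topology
open scoped ENNReal

namespace Vale.Agent.P309F
open Vale.Agent.P309

section Abs

/-- `Hent`, with the ambient sigma algebra found from the measure. -/
noncomputable abbrev Hn {X : Type*} {mX : MeasurableSpace X} (ν : Measure X) (u : X → ℝ) : ℝ := @Hent X mX ν u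

variable {X : Type*} {mX : MeasurableSpace X} {ν : Measure X} [IsProbabilityMeasure ν]

omit [IsProbabilityMeasure ν] in
lemma bn_meas {u : X → ℝ} (h : @BddNN X mX u) : Measurable[mX] u := h.meas

omit [IsProbabilityMeasure ν] in
lemma bn_nonneg {u : X → ℝ} (h : @BddNN X mX u) : ∀ s, 0 ≤ u s := h.nonneg

omit [IsProbabilityMeasure ν] in
lemma bn_bdd {u : X → ℝ} (h : @BddNN X mX u) : ∃ F : ℝ, ∀ s, u s ≤ F := h.bdd

omit [IsProbabilityMeasure ν] in
lemma bn_mk {u : X → ℝ} (hm : Measurable[mX] u) (h0 : ∀ s, 0 ≤ u s) (F : ℝ) (hF : ∀ s, u s ≤ F) :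
    @BddNN X mX u := ⟨hm, h0, F, hF⟩

omit [IsProbabilityMeasure ν] in
lemma ne_of_prob (ν : Measure X) [IsProbabilityMeasure ν] : Nonempty X :=
  nonempty_of_isProbabilityMeasure ν

omit [IsProbabilityMeasure ν] in
lemma Hn_congr [IsProbabilityMeasure ν] {u w : X → ℝ} (h : u =ᵐ[ν] w) : Hn ν u = Hn ν w := Hent_congr_ae h

/-- A bounded measurable version of the conditional expectation. -/
lemma exists_clip {G : MeasurableSpace X} (hG : G ≤ mX) {u : X → ℝ} (hu : Measurable[mX] u) {a b : ℝ}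
    (hab : a ≤ b) (hau : ∀ x, a ≤ u x) (hub : ∀ x, u x ≤ b) :
    ∃ w : X → ℝ, Measurable[G] w ∧ (∀ x, a ≤ w x ∧ w x ≤ b) ∧ w =ᵐ[ν] ν[u|G] := by
  have hui : Integrable u ν := by
    refine Integrable.of_bound hu.aestronglyMeasurable (max |a| |b|) (ae_of_all _ fun x => ?_)
    rw [Real.norm_eq_abs]
    exact abs_le_max_abs_abs (hau x) (hub x)
  have hm : Measurable[G] (ν[u|G]) := stronglyMeasurable_condExp.measurable
  refine ⟨fun x => max a (min b (ν[u|G] x)), ?_, fun x => ⟨le_max_left _ _, ?_⟩, ?_⟩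
  · exact measurable_const.max (measurable_const.min hm)
  · exact max_le hab (min_le_left _ _)
  · have h1 : ν[fun _ => a|G] =ᵐ[ν] ν[u|G] → True := fun _ => trivial
    have hlo : ∀ᵐ x ∂ν, a ≤ ν[u|G] x := by
      have := condExp_mono (m := G) (integrable_const a) hui (ae_of_all ν hau)
      rw [condExp_const hG] at this
      exact this
    have hhi : ∀ᵐ x ∂ν, ν[u|G] x ≤ b := by
      have := condExp_mono (m := G) hui (integrable_const b) (ae_of_all ν hub)
      rw [condExp_const hG] at this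
      exact this
    filter_upwards [hlo, hhi] with x h1 h2
    rw [min_eq_right h2, max_eq_right h1]

/-- Pull out property, integrated. -/
lemma integral_mul_condExp' {G : MeasurableSpace X} (hG : G ≤ mX) {w u : X → ℝ}
    (hw : Measurable[G] w) {C : ℝ} (hwb : ∀ x, |w x| ≤ C) (hu : Integrable u ν) :
    ∫ x, w x * (ν[u|G]) x ∂ν = ∫ x, w x * u x ∂ν := by
  have h := condExp_stronglyMeasurable_mul_of_bound hG hw.stronglyMeasurable hu C
    (ae_of_all _ fun x => by simpa using hwb x)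
  have h2 : ∫ x, (ν[w * u|G]) x ∂ν = ∫ x, (w * u) x ∂ν := integral_condExp hG
  rw [integral_congr_ae h] at h2
  simpa using h2

omit [IsProbabilityMeasure ν] in
/-- A bounded measurable function is integrable. -/
lemma bdd_int [IsFiniteMeasure ν] {f : X → ℝ} (hf : Measurable f) {C : ℝ} (hb : ∀ x, |f x| ≤ C) :
    Integrable f ν :=
  Integrable.of_bound hf.aestronglyMeasurable C (ae_of_all _ fun x => by simpa using hb x)

/-- Set integrals of functions independent of the set. -/
lemma setIntegral_indep {K Gk : MeasurableSpace X} (hK : K ≤ mX) (hGk : Gk ≤ mX)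
    (hind : Indep K Gk ν) {f : X → ℝ} (hf : StronglyMeasurable[K] f) (hfi : Integrable f ν)
    {B : Set X} (hB : MeasurableSet[Gk] B) :
    ∫ x in B, f x ∂ν = ν.real B * ∫ x, f x ∂ν := by
  rw [← setIntegral_condExp hGk hfi hB]
  have h := condExp_indep_eq hK hGk hf hind
  rw [setIntegral_congr_ae (hGk _ hB) (h.mono fun x hx _ => hx), setIntegral_const, smul_eq_mul]

/-- Conditioning on an independent sigma algebra as well changes nothing. -/
lemma condExp_sup_indep {H K Gk : MeasurableSpace X} (hK : K ≤ mX) (hGk : Gk ≤ mX) (hHK : H ≤ K)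
    (hind : Indep K Gk ν) {φ : X → ℝ} (hφm : StronglyMeasurable[K] φ) (hφi : Integrable φ ν) :
    ν[φ|H ⊔ Gk] =ᵐ[ν] ν[φ|H] := by
  have hH : H ≤ mX := hHK.trans hK
  have hsup : H ⊔ Gk ≤ mX := sup_le hH hGk
  have hg : Integrable (ν[φ|H]) ν := integrable_condExp
  refine (ae_eq_condExp_of_forall_setIntegral_eq hsup hφi (fun s _ _ => hg.integrableOn)
    (fun s hs hfin => ?_) ?_).symm
  · -- induction over the pi system of intersections
    clear hfin
    let P : Set (Set X) := {t | ∃ A B, MeasurableSet[H] A ∧ MeasurableSet[Gk] B ∧ t = A ∩ B}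
    have hpi : IsPiSystem P := by
      rintro _ ⟨A, B, hA, hB, rfl⟩ _ ⟨A', B', hA', hB', rfl⟩ _
      exact ⟨A ∩ A', B ∩ B', hA.inter hA', hB.inter hB', by ext x; simp; tauto⟩
    have hgen : H ⊔ Gk = MeasurableSpace.generateFrom P := by
      apply le_antisymm
      · refine sup_le (fun A hA => ?_) (fun B hB => ?_)
        · exact MeasurableSpace.measurableSet_generateFrom ⟨A, univ, hA, .univ, by simp⟩
        · exact MeasurableSpace.measurableSet_generateFrom ⟨univ, B, .univ, hB, by simp⟩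
      · refine MeasurableSpace.generateFrom_le ?_
        rintro _ ⟨A, B, hA, hB, rfl⟩
        exact MeasurableSet.inter ((le_sup_left : H ≤ H ⊔ Gk) _ hA)
          ((le_sup_right : Gk ≤ H ⊔ Gk) _ hB)
    have hint : ∀ f : X → ℝ, Integrable f ν → StronglyMeasurable[K] f →
        ∀ A B, MeasurableSet[H] A → MeasurableSet[Gk] B →
        ∫ x in A ∩ B, f x ∂ν = ν.real B * ∫ x in A, f x ∂ν := by
      intro f hfi hf A B hA hB
      have hAK : MeasurableSet[K] A := hHK _ hA
      have h1 : StronglyMeasurable[K] (A.indicator f) := hf.indicator hAK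
      have h2 := setIntegral_indep hK hGk hind h1 (hfi.indicator (hK _ hAK)) hB
      rw [setIntegral_indicator (hK _ hAK), integral_indicator (hK _ hAK), inter_comm B A] at h2
      exact h2
    induction s, hs using MeasurableSpace.induction_on_inter hgen hpi with
    | empty => simp
    | basic t ht =>
      obtain ⟨A, B, hA, hB, rfl⟩ := ht
      rw [hint _ hg (stronglyMeasurable_condExp.mono hHK) A B hA hB, hint _ hφi hφm A B hA hB,
        setIntegral_condExp hH hφi hA]
    | compl t htm ih =>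
      have ht' : MeasurableSet[mX] t := hsup _ htm
      have h1 := integral_add_compl ht' hg
      have h2 := integral_add_compl ht' hφi
      have h3 : ∫ x, (ν[φ|H]) x ∂ν = ∫ x, φ x ∂ν := integral_condExp hH
      linarith
    | iUnion f hd hf ih =>
      have hf' : ∀ i, MeasurableSet[mX] (f i) := fun i => hsup _ (hf i)
      rw [integral_iUnion hf' hd hg.integrableOn, integral_iUnion hf' hd hφi.integrableOn]
      exact tsum_congr ih
  · exact (stronglyMeasurable_condExp.mono le_sup_left).aestronglyMeasurable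

/-- The logarithm is bounded on a positive interval. -/
lemma abs_log_le_of_mem {ε F x : ℝ} (hε : 0 < ε) (h1 : ε ≤ x) (h2 : x ≤ F) :
    |log x| ≤ |log ε| + |log F| := by
  have hx : 0 < x := hε.trans_le h1
  have h3 : log ε ≤ log x := Real.log_le_log hε h1
  have h4 : log x ≤ log F := Real.log_le_log hx h2
  rw [abs_le]
  constructor
  · have := neg_abs_le (log ε)
    have := abs_nonneg (log F)
    linarith
  · have := le_abs_self (log F)
    have := abs_nonneg (log ε)
    linarith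

/-- The basic step of the chain, for a function bounded below. -/
lemma han_step {H K Gk : MeasurableSpace X} (hK : K ≤ mX) (hGk : Gk ≤ mX) (hHK : H ≤ K)
    (hind : Indep K Gk ν) {g : X → ℝ} (hg : Measurable[mX] g) {ε F : ℝ} (hε : 0 < ε)
    (hgε : ∀ x, ε ≤ g x) (hgF : ∀ x, g x ≤ F) :
    Hn ν (ν[g|H ⊔ Gk]) - Hn ν (ν[g|H]) ≤ Hn ν g - Hn ν (ν[g|K]) := by
  classical
  have hH : H ≤ mX := hHK.trans hK
  have hsup : H ⊔ Gk ≤ mX := sup_le hH hGk
  have hεF : ε ≤ F := by
    obtain ⟨x⟩ : Nonempty X := ne_of_prob ν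
    exact (hgε x).trans (hgF x)
  have hF0 : 0 < F := hε.trans_le hεF
  obtain ⟨c, hcm, hcb, hc⟩ := exists_clip (ν := ν) hsup hg hεF hgε hgF
  obtain ⟨e, hem, heb, he⟩ := exists_clip (ν := ν) hH hg hεF hgε hgF
  obtain ⟨a, ham, hab, ha⟩ := exists_clip (ν := ν) hK hg hεF hgε hgF
  have hgi : Integrable g ν := by
    refine bdd_int hg (C := |ε| + |F|) fun x => ?_
    rw [abs_le]
    constructor
    · have := neg_abs_le ε
      have := abs_nonneg F
      linarith [hgε x]
    · have := le_abs_self F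
      have := abs_nonneg ε
      linarith [hgF x]
  rw [← Hn_congr hc, ← Hn_congr he, ← Hn_congr ha]
  have hcm' : Measurable[mX] c := hcm.mono hsup le_rfl
  have hem' : Measurable[mX] e := hem.mono hH le_rfl
  have ham' : Measurable[mX] a := ham.mono hK le_rfl
  set B : ℝ := |log ε| + |log F| with hB
  have hlogc : ∀ x, |log (c x)| ≤ B := fun x => abs_log_le_of_mem hε (hcb x).1 (hcb x).2
  have hloge : ∀ x, |log (e x)| ≤ B := fun x => abs_log_le_of_mem hε (heb x).1 (heb x).2
  have hloga : ∀ x, |log (a x)| ≤ B := fun x => abs_log_le_of_mem hε (hab x).1 (hab x).2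
  have hlogg : ∀ x, |log (g x)| ≤ B := fun x => abs_log_le_of_mem hε (hgε x) (hgF x)
  have hmlc : Measurable[H ⊔ Gk] fun x => log (c x) := Real.measurable_log.comp hcm
  have hmle : Measurable[H] fun x => log (e x) := Real.measurable_log.comp hem
  have hmla : Measurable[K] fun x => log (a x) := Real.measurable_log.comp ham
  -- the total masses
  have hτc : ∫ x, c x ∂ν = ∫ x, g x ∂ν := by
    rw [integral_congr_ae hc]; exact integral_condExp hsup
  have hτe : ∫ x, e x ∂ν = ∫ x, g x ∂ν := by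
    rw [integral_congr_ae he]; exact integral_condExp hH
  have hτa : ∫ x, a x ∂ν = ∫ x, g x ∂ν := by
    rw [integral_congr_ae ha]; exact integral_condExp hK
  -- pull out identities
  have hpull_a : ∫ x, log (a x) * g x ∂ν = ∫ x, log (a x) * a x ∂ν := by
    rw [← integral_mul_condExp' hK hmla hloga hgi]
    exact integral_congr_ae (ha.symm.mono fun x hx => by simp only [hx])
  have hpull_c : ∫ x, log (c x) * g x ∂ν = ∫ x, log (c x) * c x ∂ν := by
    rw [← integral_mul_condExp' hsup hmlc hlogc hgi]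
    exact integral_congr_ae (hc.symm.mono fun x hx => by simp only [hx])
  have hpull_e : ∫ x, log (e x) * g x ∂ν = ∫ x, log (e x) * e x ∂ν := by
    rw [← integral_mul_condExp' hH hmle hloge hgi]
    exact integral_congr_ae (he.symm.mono fun x hx => by simp only [hx])
  -- the ratio
  set R : ℝ := F / ε with hR
  have hR0 : 0 < R := div_pos hF0 hε
  have hratio : ∀ x, |c x / e x| ≤ R := fun x => by
    have h1 : 0 < c x := hε.trans_le (hcb x).1
    have h2 : 0 < e x := hε.trans_le (heb x).1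
    rw [abs_of_pos (div_pos h1 h2)]
    exact div_le_div₀ hF0.le (hcb x).2 hε (heb x).1
  have hmr : Measurable[H ⊔ Gk] fun x => c x / e x :=
    hcm.div (hem.mono le_sup_left le_rfl)
  have hai : Integrable a ν := by
    refine bdd_int ham' (C := |ε| + |F|) fun x => ?_
    rw [abs_le]
    constructor
    · have := neg_abs_le ε
      have := abs_nonneg F
      linarith [(hab x).1]
    · have := le_abs_self F
      have := abs_nonneg ε
      linarith [(hab x).2]
  have hcond : ν[a|H ⊔ Gk] =ᵐ[ν] e := by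
    have h1 := condExp_sup_indep hK hGk hHK hind (φ := a) ham.stronglyMeasurable hai
    have h2 : ν[a|H] =ᵐ[ν] ν[ν[g|K]|H] := condExp_congr_ae ha
    have h3 : ν[ν[g|K]|H] =ᵐ[ν] ν[g|H] := condExp_condExp_of_le hHK hK
    exact h1.trans (h2.trans (h3.trans he.symm))
  have hpull_r : ∫ x, (c x / e x) * a x ∂ν = ∫ x, g x ∂ν := by
    rw [← integral_mul_condExp' hsup hmr hratio hai, ← hτc]
    refine integral_congr_ae (hcond.mono fun x hx => ?_)
    have h2 : e x ≠ 0 := (hε.trans_le (heb x).1).ne'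
    simp only [hx]
    field_simp
  -- integrability
  have hI1 : Integrable (fun x => g x * log (g x)) ν := by
    refine bdd_int (hg.mul (Real.measurable_log.comp hg)) (C := F * B) fun x => ?_
    rw [abs_mul]
    have h0 : 0 < g x := hε.trans_le (hgε x)
    rw [abs_of_pos h0]
    exact mul_le_mul (hgF x) (hlogg x) (abs_nonneg _) hF0.le
  have hintM : ∀ f : X → ℝ, Measurable[mX] f → (∀ x, |f x| ≤ B) → Integrable (fun x => f x * g x) ν := by
    intro f hf hfb
    refine bdd_int (hf.mul hg) (C := B * F) fun x => ?_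
    rw [abs_mul]
    have h0 : 0 < g x := hε.trans_le (hgε x)
    rw [abs_of_pos h0]
    exact mul_le_mul (hfb x) (hgF x) h0.le ((abs_nonneg _).trans (hfb x))
  have hI2 : Integrable (fun x => log (a x) * g x) ν := hintM _ (Real.measurable_log.comp ham') hloga
  have hI3 : Integrable (fun x => log (c x) * g x) ν := hintM _ (Real.measurable_log.comp hcm') hlogc
  have hI4 : Integrable (fun x => log (e x) * g x) ν := hintM _ (Real.measurable_log.comp hem') hloge
  have hI5 : Integrable (fun x => (c x / e x) * a x) ν := by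
    refine bdd_int ((hcm'.div hem').mul ham') (C := R * F) fun x => ?_
    rw [abs_mul]
    have h0 : 0 < a x := hε.trans_le (hab x).1
    rw [abs_of_pos h0]
    exact mul_le_mul (hratio x) (hab x).2 h0.le hR0.le
  -- the pointwise inequality
  have hpt : ∀ x, log (c x) * g x - log (e x) * g x + g x - (c x / e x) * a x ≤
      g x * log (g x) - log (a x) * g x := by
    intro x
    have hg0 : 0 < g x := hε.trans_le (hgε x)
    have ha0 : 0 < a x := hε.trans_le (hab x).1
    have hc0 : 0 < c x := hε.trans_le (hcb x).1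
    have he0 : 0 < e x := hε.trans_le (heb x).1
    have ht : 0 < g x * e x / (a x * c x) := by positivity
    have h1 := Real.one_sub_inv_le_log_of_pos ht
    have h2 : log (g x * e x / (a x * c x)) = log (g x) + log (e x) - log (a x) - log (c x) := by
      rw [Real.log_div (by positivity) (by positivity), Real.log_mul hg0.ne' he0.ne',
        Real.log_mul ha0.ne' hc0.ne']
      ring
    rw [h2] at h1
    have h3 : g x * (1 - (g x * e x / (a x * c x))⁻¹) = g x - c x / e x * a x := by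
      field_simp
    have h4 := mul_le_mul_of_nonneg_left h1 hg0.le
    rw [h3] at h4
    nlinarith [h4]
  have hmain : ∫ x, (log (c x) * g x - log (e x) * g x + g x - (c x / e x) * a x) ∂ν ≤
      ∫ x, (g x * log (g x) - log (a x) * g x) ∂ν :=
    integral_mono (((hI3.sub hI4).add hgi).sub hI5) (hI1.sub hI2) hpt
  have hA : Integrable (fun x => log (c x) * g x - log (e x) * g x) ν := hI3.sub hI4
  have hB : Integrable (fun x => log (c x) * g x - log (e x) * g x + g x) ν := hA.add hgi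
  rw [integral_sub hB hI5, integral_add hA hgi,
    integral_sub hI3 hI4, integral_sub hI1 hI2, hpull_a, hpull_c, hpull_e, hpull_r] at hmain
  unfold Hn Hent
  rw [hτc, hτe, hτa]
  have e1 : ∫ x, c x * log (c x) ∂ν = ∫ x, log (c x) * c x ∂ν :=
    integral_congr_ae (ae_of_all _ fun x => mul_comm _ _)
  have e2 : ∫ x, e x * log (e x) ∂ν = ∫ x, log (e x) * e x ∂ν :=
    integral_congr_ae (ae_of_all _ fun x => mul_comm _ _)
  have e3 : ∫ x, a x * log (a x) ∂ν = ∫ x, log (a x) * a x ∂ν :=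
    integral_congr_ae (ae_of_all _ fun x => mul_comm _ _)
  rw [e1, e2, e3]
  linarith

variable {ι : Type*} [Fintype ι] [DecidableEq ι]

/-- The sigma algebra of the blocks in `T`. -/
@[instance_reducible] def HT (G : ι → MeasurableSpace X) (T : Finset ι) : MeasurableSpace X := ⨆ b ∈ T, G b

omit [Fintype ι] [DecidableEq ι] in
lemma HT_le {G : ι → MeasurableSpace X} (hle : ∀ b, G b ≤ mX) (T : Finset ι) : HT G T ≤ mX :=
  iSup₂_le fun b _ => hle b

/-- Han's inequality along a growing family of blocks, for functions bounded below. -/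
lemma han_chain {G : ι → MeasurableSpace X} (hle : ∀ b, G b ≤ mX) (hind : iIndep G ν)
    {g : X → ℝ} (hg : Measurable[mX] g) {ε F : ℝ} (hε : 0 < ε)
    (hgε : ∀ x, ε ≤ g x) (hgF : ∀ x, g x ≤ F) (T : Finset ι) :
    Hn ν (ν[g|HT G T]) ≤ ∑ b ∈ T, (Hn ν g - Hn ν (ν[g|HT G (Finset.univ.erase b)])) := by
  induction T using Finset.induction_on with
  | empty =>
    have h0 : HT G ∅ = ⊥ := by simp [HT]
    rw [h0, condExp_bot]
    simp [Hn, Hent]
  | insert k T hk ih =>
    rw [Finset.sum_insert hk]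
    have hsplit : HT G (insert k T) = HT G T ⊔ G k := by
      simp only [HT, Finset.iSup_insert]
      exact sup_comm _ _
    have hHK : HT G T ≤ HT G (Finset.univ.erase k) := by
      refine biSup_mono fun b hb => ?_
      exact Finset.mem_erase.2 ⟨fun h => hk (h ▸ hb), Finset.mem_univ _⟩
    have hi : Indep (HT G (Finset.univ.erase k)) (G k) ν := by
      have := indep_iSup_of_disjoint hle hind
        (S := (↑(Finset.univ.erase k) : Set ι)) (T := {k}) (by simp)
      simpa [HT] using this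
    have h := han_step (HT_le hle _) (hle k) hHK hi hg hε hgε hgF
    rw [hsplit]
    linarith

/-- The shift used to reach functions that vanish. -/
noncomputable def epsN (n : ℕ) : ℝ := 1 / ((n : ℝ) + 1)

omit [Fintype ι] [DecidableEq ι] in
lemma epsN_pos (n : ℕ) : 0 < epsN n := by unfold epsN; positivity

omit [Fintype ι] [DecidableEq ι] in
lemma epsN_le (n : ℕ) : epsN n ≤ 1 := by
  unfold epsN
  rw [div_le_one (by positivity)]
  have : (0 : ℝ) ≤ n := Nat.cast_nonneg n
  linarith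

omit [Fintype ι] [DecidableEq ι] in
lemma epsN_tendsto : Tendsto epsN atTop (𝓝 0) := tendsto_one_div_add_atTop_nhds_zero_nat

omit [Fintype ι] [DecidableEq ι] in
lemma tendsto_Hn_add {w : X → ℝ} (hw : BddNN w) :
    Tendsto (fun n => Hn ν (fun x => w x + epsN n)) atTop (𝓝 (Hn ν w)) := by
  obtain ⟨F, hF⟩ := (bn_bdd hw)
  refine Hent_tendsto (F := F + 1) (fun n => ?_) hw (fun n s => ?_) (fun s => ?_) ?_
  · exact ⟨(bn_meas hw).add measurable_const, fun s => add_nonneg ((bn_nonneg hw) s) (epsN_pos n).le,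
      F + 1, fun s => by linarith [hF s, epsN_le n]⟩
  · linarith [hF s, epsN_le n]
  · linarith [hF s]
  · have h : ∀ n, ∫ s, |w s + epsN n - w s| ∂ν = epsN n := fun n => by
      have h0 := (epsN_pos n).le
      simp [abs_of_nonneg h0]
    simp only [h]
    exact epsN_tendsto

omit [Fintype ι] [DecidableEq ι] in
lemma tendsto_Hn_condExp {K : MeasurableSpace X} (hK : K ≤ mX) {g : X → ℝ} (hg : @BddNN X mX g) :
    Tendsto (fun n => Hn ν (ν[fun x => g x + epsN n|K])) atTop (𝓝 (Hn ν (ν[g|K]))) := by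
  obtain ⟨F, hF⟩ := (bn_bdd hg)
  have hF0 : 0 ≤ F := by
    obtain ⟨x⟩ : Nonempty X := ne_of_prob ν
    exact ((bn_nonneg hg) x).trans (hF x)
  obtain ⟨w, hwm, hwb, hw⟩ := exists_clip (ν := ν) hK (bn_meas hg) hF0 (bn_nonneg hg) hF
  have hgi : Integrable g ν := by
    refine bdd_int (bn_meas hg) (C := F) fun x => ?_
    rw [abs_of_nonneg ((bn_nonneg hg) x)]
    exact hF x
  have hwB : @BddNN X mX w := bn_mk (hwm.mono hK le_rfl) (fun x => (hwb x).1) F (fun x => (hwb x).2)
  have h1 : ∀ n, Hn ν (ν[fun x => g x + epsN n|K]) = Hn ν (fun x => w x + epsN n) := by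
    intro n
    refine Hn_congr ?_
    have h2 : ν[fun x => g x + epsN n|K] =ᵐ[ν] ν[g|K] + ν[fun _ => epsN n|K] :=
      condExp_add hgi (integrable_const _) K
    rw [condExp_const hK] at h2
    filter_upwards [h2, hw] with x hx hx'
    rw [hx]
    simp [hx']
  simp only [h1]
  rw [Hn_congr hw.symm]
  exact tendsto_Hn_add hwB

/-- Han's inequality along a growing family of blocks. -/
lemma han_bdd {G : ι → MeasurableSpace X} (hle : ∀ b, G b ≤ mX) (hind : iIndep G ν)
    {g : X → ℝ} (hg : @BddNN X mX g) (T : Finset ι) :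
    Hn ν (ν[g|HT G T]) ≤ ∑ b ∈ T, (Hn ν g - Hn ν (ν[g|HT G (Finset.univ.erase b)])) := by
  obtain ⟨F, hF⟩ := (bn_bdd hg)
  have hn : ∀ n : ℕ, Hn ν (ν[fun x => g x + epsN n|HT G T]) ≤
      ∑ b ∈ T, (Hn ν (fun x => g x + epsN n) -
        Hn ν (ν[fun x => g x + epsN n|HT G (Finset.univ.erase b)])) := fun n =>
    han_chain (g := fun x => g x + epsN n) hle hind ((bn_meas hg).add measurable_const) (epsN_pos n)
      (F := F + 1)
      (fun x => by
        show epsN n ≤ g x + epsN n
        linarith [(bn_nonneg hg) x])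
      (fun x => by
        show g x + epsN n ≤ F + 1
        linarith [hF x, epsN_le n]) T
  refine le_of_tendsto_of_tendsto' (tendsto_Hn_condExp (HT_le hle _) hg) ?_ hn
  refine tendsto_finsetSum _ fun b _ => ?_
  exact (tendsto_Hn_add hg).sub (tendsto_Hn_condExp (HT_le hle _) hg)

section Bayes

variable {lam : Measure X} [IsProbabilityMeasure lam] {ℓ : X → ℝ}

omit [IsProbabilityMeasure ν] [IsProbabilityMeasure lam] in
lemma integral_lam (hℓ : @BddNN X mX ℓ) (hlam : lam = ν.withDensity fun x => ENNReal.ofReal (ℓ x))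
    (f : X → ℝ) : ∫ x, f x ∂lam = ∫ x, ℓ x * f x ∂ν := by
  subst hlam
  rw [integral_withDensity_eq_integral_toReal_smul (f := fun x => ENNReal.ofReal (ℓ x))
    (ENNReal.measurable_ofReal.comp (bn_meas hℓ)) (ae_of_all _ fun x => ENNReal.ofReal_lt_top)]
  refine integral_congr_ae (ae_of_all _ fun x => ?_)
  simp [ENNReal.toReal_ofReal ((bn_nonneg hℓ) x)]

/-- Bayes rule, in multiplicative form. -/
lemma bayes {K : MeasurableSpace X} (hK : K ≤ mX) (hℓ : @BddNN X mX ℓ)
    (hlam : lam = ν.withDensity fun x => ENNReal.ofReal (ℓ x)) {q : X → ℝ} (hq : @BddNN X mX q)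
    {p a : X → ℝ} {P A : ℝ} (hpm : Measurable[K] p) (hpb : ∀ x, |p x| ≤ P)
    (hp : p =ᵐ[lam] lam[q|K]) (ham : Measurable[K] a) (hab : ∀ x, |a x| ≤ A)
    (ha : a =ᵐ[ν] ν[ℓ|K]) :
    ν[fun x => q x * ℓ x|K] =ᵐ[ν] fun x => p x * a x := by
  obtain ⟨Fq, hFq⟩ := (bn_bdd hq)
  obtain ⟨Fl, hFl⟩ := (bn_bdd hℓ)
  have hFq0 : 0 ≤ Fq := by
    obtain ⟨x⟩ : Nonempty X := ne_of_prob ν
    exact ((bn_nonneg hq) x).trans (hFq x)
  have hFl0 : 0 ≤ Fl := by
    obtain ⟨x⟩ : Nonempty X := ne_of_prob ν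
    exact ((bn_nonneg hℓ) x).trans (hFl x)
  have hli : Integrable ℓ ν := bdd_int (bn_meas hℓ) (C := Fl) fun x => by
    rw [abs_of_nonneg ((bn_nonneg hℓ) x)]; exact hFl x
  have hqi : Integrable q lam := bdd_int (bn_meas hq) (C := Fq) fun x => by
    rw [abs_of_nonneg ((bn_nonneg hq) x)]; exact hFq x
  have hqli : Integrable (fun x => q x * ℓ x) ν :=
    bdd_int ((bn_meas hq).mul (bn_meas hℓ)) (C := Fq * Fl) fun x => by
      rw [abs_of_nonneg (mul_nonneg ((bn_nonneg hq) x) ((bn_nonneg hℓ) x))]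
      exact mul_le_mul (hFq x) (hFl x) ((bn_nonneg hℓ) x) hFq0
  have hpm' : Measurable[mX] p := hpm.mono hK le_rfl
  have ham' : Measurable[mX] a := ham.mono hK le_rfl
  have hP0 : 0 ≤ P := by
    obtain ⟨x⟩ : Nonempty X := ne_of_prob ν
    exact (abs_nonneg _).trans (hpb x)
  have hpai : Integrable (fun x => p x * a x) ν :=
    bdd_int (hpm'.mul ham') (C := P * A) fun x => by
      rw [abs_mul]
      exact mul_le_mul (hpb x) (hab x) (abs_nonneg _) hP0
  refine (ae_eq_condExp_of_forall_setIntegral_eq hK hqli (fun s _ _ => hpai.integrableOn)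
    (fun s hs _ => ?_) (hpm.mul ham).stronglyMeasurable.aestronglyMeasurable).symm
  have hsm : MeasurableSet[mX] s := hK _ hs
  -- left side
  have hw : Measurable[K] (s.indicator p) := hpm.indicator hs
  have hwb : ∀ x, |s.indicator p x| ≤ P := fun x => by
    by_cases hx : x ∈ s
    · simpa [hx] using hpb x
    · simpa [hx] using hP0
  have h1 : ∫ x in s, p x * a x ∂ν = ∫ x, s.indicator p x * (ν[ℓ|K]) x ∂ν := by
    rw [← integral_indicator hsm]
    refine integral_congr_ae (ha.mono fun x hx => ?_)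
    by_cases hxs : x ∈ s
    · simp [hxs, hx]
    · simp [hxs]
  have h2 : ∫ x, s.indicator p x * (ν[ℓ|K]) x ∂ν = ∫ x, s.indicator p x * ℓ x ∂ν :=
    integral_mul_condExp' hK hw hwb hli
  have h3 : ∫ x, s.indicator p x * ℓ x ∂ν = ∫ x, s.indicator p x ∂lam := by
    rw [integral_lam hℓ hlam]
    exact integral_congr_ae (ae_of_all _ fun x => mul_comm _ _)
  have h4 : ∫ x, s.indicator p x ∂lam = ∫ x in s, q x ∂lam := by
    rw [integral_indicator hsm, setIntegral_congr_ae hsm (hp.mono fun x hx _ => hx),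
      setIntegral_condExp hK hqi hs]
  have h5 : ∫ x in s, q x ∂lam = ∫ x in s, q x * ℓ x ∂ν := by
    rw [← integral_indicator hsm, integral_lam hℓ hlam, ← integral_indicator hsm]
    refine integral_congr_ae (ae_of_all _ fun x => ?_)
    by_cases hxs : x ∈ s
    · simp [hxs, mul_comm]
    · simp [hxs]
  rw [h1, h2, h3, h4, h5]

/-- The entropy of a product, split off the density. -/
lemma Hn_mul_split {K : MeasurableSpace X} (hK : K ≤ mX) (hℓ : @BddNN X mX ℓ)
    (hlam : lam = ν.withDensity fun x => ENNReal.ofReal (ℓ x))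
    {p a : X → ℝ} {P A : ℝ} (hpm : Measurable[K] p) (hp0 : ∀ x, 0 ≤ p x) (hpb : ∀ x, p x ≤ P)
    (ham : Measurable[K] a) (ha0 : ∀ x, 0 ≤ a x) (hab : ∀ x, a x ≤ A)
    (ha : a =ᵐ[ν] ν[ℓ|K]) :
    Hn ν (fun x => p x * a x) = Hn lam p + ∫ x, p x * (a x * log (a x)) ∂ν := by
  obtain ⟨x₀⟩ : Nonempty X := ne_of_prob ν
  obtain ⟨Fl, hFl⟩ := (bn_bdd hℓ)
  have hP0 : 0 ≤ P := (hp0 x₀).trans (hpb x₀)
  have hA0 : 0 ≤ A := (ha0 x₀).trans (hab x₀)
  have hli : Integrable ℓ ν := bdd_int (bn_meas hℓ) (C := Fl) fun x => by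
    rw [abs_of_nonneg ((bn_nonneg hℓ) x)]; exact hFl x
  have hpm' : Measurable[mX] p := hpm.mono hK le_rfl
  have ham' : Measurable[mX] a := ham.mono hK le_rfl
  -- pull out against `a`
  have hpull : ∀ w : X → ℝ, Measurable[K] w → ∀ C, (∀ x, |w x| ≤ C) →
      ∫ x, w x * a x ∂ν = ∫ x, w x ∂lam := by
    intro w hw C hC
    have h1 : ∫ x, w x * a x ∂ν = ∫ x, w x * (ν[ℓ|K]) x ∂ν :=
      integral_congr_ae (ha.mono fun x hx => by simp only [hx])
    rw [h1, integral_mul_condExp' hK hw hC hli, integral_lam hℓ hlam]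
    exact integral_congr_ae (ae_of_all _ fun x => mul_comm _ _)
  have hpb' : ∀ x, |p x| ≤ P := fun x => by rw [abs_of_nonneg (hp0 x)]; exact hpb x
  have hplogb : ∀ x, |p x * log (p x)| ≤ 1 + P ^ 2 := fun x => abs_mul_log_le (hp0 x) (hpb x)
  have haLogb : ∀ x, |a x * log (a x)| ≤ 1 + A ^ 2 := fun x => abs_mul_log_le (ha0 x) (hab x)
  have hmp : Measurable[K] fun x => p x * log (p x) := hpm.mul (Real.measurable_log.comp hpm)
  have h1 := hpull p hpm P hpb'
  have h2 := hpull _ hmp _ hplogb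
  have hI1 : Integrable (fun x => (p x * log (p x)) * a x) ν :=
    bdd_int ((hmp.mono hK le_rfl).mul ham') (C := (1 + P ^ 2) * A) fun x => by
      rw [abs_mul, abs_of_nonneg (ha0 x)]
      exact mul_le_mul (hplogb x) (hab x) (ha0 x) (by positivity)
  have hI2 : Integrable (fun x => p x * (a x * log (a x))) ν :=
    bdd_int (hpm'.mul (ham'.mul (Real.measurable_log.comp ham'))) (C := P * (1 + A ^ 2)) fun x => by
      rw [abs_mul, abs_of_nonneg (hp0 x)]
      exact mul_le_mul (hpb x) (haLogb x) (abs_nonneg _) hP0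
  have hsplit : ∫ x, p x * a x * log (p x * a x) ∂ν =
      ∫ x, (p x * log (p x)) * a x ∂ν + ∫ x, p x * (a x * log (a x)) ∂ν := by
    rw [← integral_add hI1 hI2]
    refine integral_congr_ae (ae_of_all _ fun x => ?_)
    by_cases hp : p x = 0
    · simp [hp]
    by_cases ha : a x = 0
    · simp [ha]
    simp only
    rw [Real.log_mul hp ha]
    ring
  unfold Hn Hent
  rw [hsplit, h1, h2]
  ring

/-- The chain rule over a partition `q`, at the level of a sub sigma algebra. -/
lemma sum_Hn_condExp {K : MeasurableSpace X} (hK : K ≤ mX) (hℓ : @BddNN X mX ℓ)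
    (hℓ1 : ∫ x, ℓ x ∂ν = 1)
    (hlam : lam = ν.withDensity fun x => ENNReal.ofReal (ℓ x))
    {V : Type*} [Fintype V] {q : V → X → ℝ} (hq : ∀ v, @BddNN X mX (q v))
    (hsum : ∀ᵐ x ∂lam, ∑ v, q v x = 1) :
    ∑ v, Hn ν (ν[fun x => q v x * ℓ x|K]) =
      ∑ v, Hn lam (lam[q v|K]) + Hn ν (ν[ℓ|K]) := by
  classical
  obtain ⟨x₀⟩ : Nonempty X := ne_of_prob ν
  obtain ⟨Fl, hFl⟩ := (bn_bdd hℓ)
  have hFl0 : 0 ≤ Fl := ((bn_nonneg hℓ) x₀).trans (hFl x₀)
  have hli : Integrable ℓ ν := bdd_int (bn_meas hℓ) (C := Fl) fun x => by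
    rw [abs_of_nonneg ((bn_nonneg hℓ) x)]; exact hFl x
  obtain ⟨a, ham, hab, ha⟩ := exists_clip (ν := ν) hK (bn_meas hℓ) hFl0 (bn_nonneg hℓ) hFl
  have ham' : Measurable[mX] a := ham.mono hK le_rfl
  have hab' : ∀ x, |a x| ≤ Fl := fun x => by rw [abs_of_nonneg (hab x).1]; exact (hab x).2
  choose Fq hFq using fun v => (bn_bdd (hq v))
  have hFq0 : ∀ v, 0 ≤ Fq v := fun v => ((bn_nonneg (hq v)) x₀).trans (hFq v x₀)
  have hex : ∀ v, ∃ p : X → ℝ, Measurable[K] p ∧ (∀ x, 0 ≤ p x ∧ p x ≤ Fq v) ∧ p =ᵐ[lam] lam[q v|K] :=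
    fun v => exists_clip (ν := lam) hK (bn_meas (hq v)) (hFq0 v) (bn_nonneg (hq v)) (hFq v)
  choose p hpm hpb hp using hex
  have hbayes : ∀ v, ν[fun x => q v x * ℓ x|K] =ᵐ[ν] fun x => p v x * a x := fun v =>
    bayes hK hℓ hlam (hq v) (hpm v) (P := Fq v)
      (fun x => by rw [abs_of_nonneg (hpb v x).1]; exact (hpb v x).2) (hp v) ham hab' ha
  have hterm : ∀ v, Hn ν (ν[fun x => q v x * ℓ x|K]) =
      Hn lam (lam[q v|K]) + ∫ x, p v x * (a x * log (a x)) ∂ν := fun v => by
    rw [Hn_congr (hbayes v), ← Hn_congr (hp v)]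
    exact Hn_mul_split hK hℓ hlam (hpm v) (fun x => (hpb v x).1) (fun x => (hpb v x).2) ham
      (fun x => (hab x).1) (fun x => (hab x).2) ha
  simp only [hterm]
  rw [Finset.sum_add_distrib]
  congr 1
  -- the remaining term
  have haLogb : ∀ x, |a x * log (a x)| ≤ 1 + Fl ^ 2 := fun x =>
    abs_mul_log_le (hab x).1 (hab x).2
  have hIp : ∀ v, Integrable (fun x => p v x * (a x * log (a x))) ν := fun v =>
    bdd_int (((hpm v).mono hK le_rfl).mul (ham'.mul (Real.measurable_log.comp ham')))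
      (C := Fq v * (1 + Fl ^ 2)) fun x => by
        rw [abs_mul, abs_of_nonneg (hpb v x).1]
        exact mul_le_mul (hpb v x).2 (haLogb x) (abs_nonneg _) (hFq0 v)
  rw [← integral_finsetSum _ fun v _ => hIp v]
  -- a.e. the product sums to `a`
  have hlq : ∀ᵐ x ∂ν, ∑ v, q v x * ℓ x = ℓ x := by
    have hm : Measurable[mX] (fun x => ENNReal.ofReal (ℓ x)) :=
      ENNReal.measurable_ofReal.comp (bn_meas hℓ)
    rw [hlam, ae_withDensity_iff hm] at hsum
    filter_upwards [hsum] with x hx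
    by_cases h0 : ℓ x = 0
    · simp [h0]
    · have h1 : ENNReal.ofReal (ℓ x) ≠ 0 := by
        simp only [ne_eq, ENNReal.ofReal_eq_zero, not_le]
        exact lt_of_le_of_ne ((bn_nonneg hℓ) x) (Ne.symm h0)
      rw [← Finset.sum_mul, hx h1, one_mul]
  have hqli : ∀ v, Integrable (fun x => q v x * ℓ x) ν := fun v =>
    bdd_int ((bn_meas (hq v)).mul (bn_meas hℓ)) (C := Fq v * Fl) fun x => by
      rw [abs_of_nonneg (mul_nonneg ((bn_nonneg (hq v)) x) ((bn_nonneg hℓ) x))]
      exact mul_le_mul (hFq v x) (hFl x) ((bn_nonneg hℓ) x) (hFq0 v)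
  have hS : (∑ v, ν[fun x => q v x * ℓ x|K]) =ᵐ[ν] ν[ℓ|K] := by
    have h1 := condExp_finsetSum (μ := ν) (s := Finset.univ)
      (f := fun v x => q v x * ℓ x) (fun v _ => hqli v) K
    have h2 : ν[∑ v, fun x => q v x * ℓ x|K] =ᵐ[ν] ν[ℓ|K] := by
      refine condExp_congr_ae ?_
      filter_upwards [hlq] with x hx
      simpa using hx
    exact h1.symm.trans h2
  have hfin : ∀ᵐ x ∂ν, ∀ v, (ν[fun x => q v x * ℓ x|K]) x = p v x * a x :=
    ae_all_iff.2 hbayes
  have hae : ∀ᵐ x ∂ν, ∑ v, p v x * (a x * log (a x)) = a x * log (a x) := by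
    filter_upwards [hfin, hS, ha] with x h1 h2 h3
    have h4 : ∑ v, p v x * a x = a x := by
      calc ∑ v, p v x * a x = ∑ v, (ν[fun x => q v x * ℓ x|K]) x :=
            Finset.sum_congr rfl fun v _ => (h1 v).symm
        _ = (∑ v, ν[fun x => q v x * ℓ x|K]) x := (Finset.sum_apply _ _ _).symm
        _ = (ν[ℓ|K]) x := h2
        _ = a x := h3.symm
    calc ∑ v, p v x * (a x * log (a x)) = (∑ v, p v x * a x) * log (a x) := by
          rw [Finset.sum_mul]
          exact Finset.sum_congr rfl fun v _ => by ring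
      _ = a x * log (a x) := by rw [h4]
  rw [integral_congr_ae hae, ← Hn_congr ha]
  have hτ : ∫ x, a x ∂ν = 1 := by
    rw [integral_congr_ae ha, ← hℓ1]
    exact integral_condExp hK
  unfold Hn Hent
  rw [hτ]
  simp

/-- **The abstract Han inequality over a partition.** -/
theorem han_abstract {G : ι → MeasurableSpace X} (hle : ∀ b, G b ≤ mX) (hind : iIndep G ν)
    (hFm : ∀ u : X → ℝ, @BddNN X mX u → ν[u|HT G Finset.univ] =ᵐ[ν] u)
    (hι : 1 ≤ Fintype.card ι)
    (hℓ : @BddNN X mX ℓ) (hℓ1 : ∫ x, ℓ x ∂ν = 1)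
    (hlam : lam = ν.withDensity fun x => ENNReal.ofReal (ℓ x))
    {C : ℝ} (hℓC : ∀ x, ℓ x ≤ C)
    {V : Type*} [Fintype V] {q : V → X → ℝ} (hq : ∀ v, @BddNN X mX (q v))
    (hsum : ∀ᵐ x ∂lam, ∑ v, q v x = 1) :
    ∑ v, Hn lam (q v) ≤
      ∑ b, ∑ v, (Hn lam (q v) - Hn lam (lam[q v|HT G (Finset.univ.erase b)])) +
        ((Fintype.card ι : ℝ) - 1) * log C := by
  classical
  obtain ⟨x₀⟩ : Nonempty X := ne_of_prob ν
  -- Han for each member of the partition
  have hgB : ∀ v, @BddNN X mX fun x => q v x * ℓ x := fun v => by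
    obtain ⟨Fq, hFq⟩ := (bn_bdd (hq v))
    have hFq0 : 0 ≤ Fq := ((bn_nonneg (hq v)) x₀).trans (hFq x₀)
    exact ⟨(bn_meas (hq v)).mul (bn_meas hℓ), fun x => mul_nonneg ((bn_nonneg (hq v)) x) ((bn_nonneg hℓ) x), Fq * C,
      fun x => mul_le_mul (hFq x) (hℓC x) ((bn_nonneg hℓ) x) hFq0⟩
  have hH : ∀ v, Hn ν (fun x => q v x * ℓ x) ≤
      ∑ b, (Hn ν (fun x => q v x * ℓ x) -
        Hn ν (ν[fun x => q v x * ℓ x|HT G (Finset.univ.erase b)])) := fun v => by
    have h := han_bdd hle hind (hgB v) Finset.univ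
    rwa [Hn_congr (hFm _ (hgB v))] at h
  -- the top level
  have htop : ∑ v, Hn ν (fun x => q v x * ℓ x) = ∑ v, Hn lam (q v) + Hn ν ℓ := by
    have h := sum_Hn_condExp (ν := ν) (lam := lam) (K := mX) le_rfl hℓ hℓ1 hlam hq hsum
    have h1 : ∀ v, ν[fun x => q v x * ℓ x|mX] = fun x => q v x * ℓ x := fun v => by
      obtain ⟨F, hF⟩ := (bn_bdd (hgB v))
      refine condExp_of_stronglyMeasurable le_rfl (bn_meas (hgB v)).stronglyMeasurable ?_
      exact bdd_int (bn_meas (hgB v)) (C := F) fun x => by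
        rw [abs_of_nonneg ((bn_nonneg (hgB v)) x)]; exact hF x
    have h2 : ∀ v, lam[q v|mX] = q v := fun v => by
      obtain ⟨F, hF⟩ := (bn_bdd (hq v))
      refine condExp_of_stronglyMeasurable le_rfl (bn_meas (hq v)).stronglyMeasurable ?_
      exact bdd_int (bn_meas (hq v)) (C := F) fun x => by
        rw [abs_of_nonneg ((bn_nonneg (hq v)) x)]; exact hF x
    have h3 : ν[ℓ|mX] = ℓ := by
      obtain ⟨F, hF⟩ := (bn_bdd hℓ)
      refine condExp_of_stronglyMeasurable le_rfl (bn_meas hℓ).stronglyMeasurable ?_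
      exact bdd_int (bn_meas hℓ) (C := F) fun x => by
        rw [abs_of_nonneg ((bn_nonneg hℓ) x)]; exact hF x
    simpa only [h1, h2, h3] using h
  -- the lower levels
  have hlow : ∀ b, ∑ v, Hn ν (ν[fun x => q v x * ℓ x|HT G (Finset.univ.erase b)]) =
      ∑ v, Hn lam (lam[q v|HT G (Finset.univ.erase b)]) +
        Hn ν (ν[ℓ|HT G (Finset.univ.erase b)]) := fun b =>
    sum_Hn_condExp (ν := ν) (lam := lam) (HT_le hle _) hℓ hℓ1 hlam hq hsum
  -- nonnegativity
  obtain ⟨Fl, hFl⟩ := (bn_bdd hℓ)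
  have hFl0 : 0 ≤ Fl := ((bn_nonneg hℓ) x₀).trans (hFl x₀)
  have hDb : ∀ b, 0 ≤ Hn ν (ν[ℓ|HT G (Finset.univ.erase b)]) := fun b => by
    obtain ⟨a, ham, hab, ha⟩ := exists_clip (ν := ν) (HT_le hle (Finset.univ.erase b))
      (bn_meas hℓ) hFl0 (bn_nonneg hℓ) hFl
    rw [← Hn_congr ha]
    have haB : @BddNN X mX a :=
      ⟨ham.mono (HT_le hle _) le_rfl, fun x => (hab x).1, Fl, fun x => (hab x).2⟩
    exact Hent_nonneg haB
  -- the density term
  have hD : Hn ν ℓ ≤ log C := by
    have hli : Integrable ℓ ν := bdd_int (bn_meas hℓ) (C := Fl) fun x => by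
      rw [abs_of_nonneg ((bn_nonneg hℓ) x)]; exact hFl x
    have hI : Integrable (fun x => ℓ x * log (ℓ x)) ν :=
      bdd_int ((bn_meas hℓ).mul (Real.measurable_log.comp (bn_meas hℓ))) (C := 1 + Fl ^ 2) fun x =>
        abs_mul_log_le ((bn_nonneg hℓ) x) (hFl x)
    have h1 : ∫ x, ℓ x * log (ℓ x) ∂ν ≤ ∫ x, ℓ x * log C ∂ν := by
      refine integral_mono hI (hli.mul_const _) fun x => ?_
      rcases ((bn_nonneg hℓ) x).eq_or_lt with h0 | h0
      · simp [← h0]
      · exact mul_le_mul_of_nonneg_left (Real.log_le_log h0 (hℓC x)) h0.le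
    rw [integral_mul_const, hℓ1, one_mul] at h1
    unfold Hn Hent
    rw [hℓ1]
    simpa using h1
  -- assembling
  have hsumH := Finset.sum_le_sum (s := Finset.univ) fun v _ => hH v
  rw [Finset.sum_comm] at hsumH
  have hrw : ∀ b, ∑ v, (Hn ν (fun x => q v x * ℓ x) -
      Hn ν (ν[fun x => q v x * ℓ x|HT G (Finset.univ.erase b)])) =
      (∑ v, Hn lam (q v) + Hn ν ℓ) - (∑ v, Hn lam (lam[q v|HT G (Finset.univ.erase b)]) +
        Hn ν (ν[ℓ|HT G (Finset.univ.erase b)])) := fun b => by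
    rw [Finset.sum_sub_distrib, htop, hlow]
  rw [htop] at hsumH
  simp only [hrw] at hsumH
  have hcard : (1 : ℝ) ≤ Fintype.card ι := by exact_mod_cast hι
  have hfinal : ∑ b, ∑ v, (Hn lam (q v) - Hn lam (lam[q v|HT G (Finset.univ.erase b)])) =
      ∑ b, ((∑ v, Hn lam (q v)) - ∑ v, Hn lam (lam[q v|HT G (Finset.univ.erase b)])) := by
    refine Finset.sum_congr rfl fun b _ => ?_
    rw [Finset.sum_sub_distrib]
  rw [hfinal]
  have hexp : ∑ b : ι, ((∑ v, Hn lam (q v) + Hn ν ℓ) -
      (∑ v, Hn lam (lam[q v|HT G (Finset.univ.erase b)]) +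
        Hn ν (ν[ℓ|HT G (Finset.univ.erase b)]))) =
      ∑ b : ι, ((∑ v, Hn lam (q v)) - ∑ v, Hn lam (lam[q v|HT G (Finset.univ.erase b)])) +
        ((Fintype.card ι : ℝ) * Hn ν ℓ - ∑ b, Hn ν (ν[ℓ|HT G (Finset.univ.erase b)])) := by
    rw [← Finset.card_univ, ← nsmul_eq_mul, ← Finset.sum_const, ← Finset.sum_sub_distrib,
      ← Finset.sum_add_distrib]
    refine Finset.sum_congr rfl fun b _ => by ring
  rw [hexp] at hsumH
  have hnn : 0 ≤ ∑ b, Hn ν (ν[ℓ|HT G (Finset.univ.erase b)]) :=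
    Finset.sum_nonneg fun b _ => hDb b
  have hmul : ((Fintype.card ι : ℝ) - 1) * Hn ν ℓ ≤ ((Fintype.card ι : ℝ) - 1) * log C :=
    mul_le_mul_of_nonneg_left hD (by linarith)
  nlinarith [hsumH, hnn, hmul]

end Bayes

end Abs

end Vale.Agent.P309F
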